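import Crest.Agent.R162.K.Str

/-!
# Row 162, block K: Koebe's theorems along the flow
-/

set_option autoImplicit false

open scoped Topology
open Set Filter Metric

noncomputable section
namespace Crest.Agent.R162

variable {C : ℝ} {ω : Path} {z z' : ℂ} {t : ℝ}

theorem kf_mem (h : Alive ω z t) : gt ω z t ∈ HH := (alive_iff.1 h : 0 < Yc ω z t)

theorem kf_Up (h : Alive ω z t) : Up ω z t = Yc ω z t * ‖deriv (ft ω t) (gt ω z t)‖ := by
  have := Up_ft (ω := ω) h.1 (kf_mem h)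
  rwa [h.ft_gt] at this

theorem kf_im (ζ ζ' : ℂ) : ζ.im - ‖ζ' - ζ‖ ≤ ζ'.im ∧ ζ'.im ≤ ζ.im + ‖ζ' - ζ‖ := by
  have h := abs_le.1 (Complex.abs_im_le_norm (ζ' - ζ))
  rw [Complex.sub_im] at h
  constructor <;> linarith [h.1, h.2]

theorem kf_quarter (hC : Koebe C) (h : Alive ω z t) :
    ball z (Up ω z t / C) ⊆ ft ω t '' ball (gt ω z t) (Yc ω z t / 2) := by
  have := hC.quarter (ft ω t) (differentiableOn_ft h.1) (injOn_ft h.1) _ (kf_mem h)
  rw [h.ft_gt] at this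
  rw [kf_Up h]
  exact this

theorem kf_half (h : Alive ω z t) : ball (gt ω z t) (Yc ω z t / 2) ⊆ HH := fun u hu => by
  have h1 := (kf_im (gt ω z t) u).1
  have h2 : 0 < (gt ω z t).im := kf_mem h
  have h3 : ‖u - gt ω z t‖ < (gt ω z t).im / 2 := mem_ball_iff_norm.1 hu
  show 0 < u.im
  linarith

theorem kf_ball (hC : Koebe C) (h : Alive ω z t) : ball z (Up ω z t / C) ⊆ Dom ω t := by
  rw [← image_ft h.1]
  exact (kf_quarter hC h).trans (image_mono (kf_half h))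

theorem kf_le (hC : Koebe C) (h : Alive ω z t) {r : ℝ} (hr : ball z r ⊆ Dom ω t) : r ≤ 2 * Up ω z t := by
  have := hC.schwarz (ft ω t) (differentiableOn_ft h.1) (injOn_ft h.1) _ (kf_mem h) r (by rwa [h.ft_gt, image_ft h.1])
  rw [kf_Up h]
  exact this

theorem kf_Sc (h : Alive ω z t) (h' : Alive ω z' t) (hd : ‖gt ω z' t - gt ω z t‖ ≤ Yc ω z t / 2) :
    Sc ω z' t ≤ 3 * Sc ω z t ∧ Sc ω z t ≤ 3 * Sc ω z' t := by
  have hY : 0 < Yc ω z t := alive_iff.1 h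
  have hY' : 0 < Yc ω z' t := alive_iff.1 h'
  have hZ : Yc ω z t ≤ ‖Zc ω z t‖ := Yc_le_norm
  have hZ' : Yc ω z' t ≤ ‖Zc ω z' t‖ := Yc_le_norm
  have h1 : Yc ω z t - ‖gt ω z' t - gt ω z t‖ ≤ Yc ω z' t ∧ Yc ω z' t ≤ Yc ω z t + ‖gt ω z' t - gt ω z t‖ :=
    kf_im _ _
  have h2 : |‖Zc ω z' t‖ - ‖Zc ω z t‖| ≤ ‖gt ω z' t - gt ω z t‖ := by
    have := abs_norm_sub_norm_le (Zc ω z' t) (Zc ω z t)
    rwa [show Zc ω z' t - Zc ω z t = gt ω z' t - gt ω z t by simp [Zc]] at this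
  obtain ⟨h3, h4⟩ := abs_le.1 h2
  unfold Sc
  constructor
  · rw [← mul_div_assoc, div_le_div_iff₀ (by linarith) (by linarith)]
    calc Yc ω z' t * ‖Zc ω z t‖ ≤ (3 / 2 * Yc ω z t) * (2 * ‖Zc ω z' t‖) :=
          mul_le_mul (by linarith [h1.2]) (by linarith) (norm_nonneg _) (by linarith)
      _ = _ := by ring
  · rw [← mul_div_assoc, div_le_div_iff₀ (by linarith) (by linarith)]
    calc Yc ω z t * ‖Zc ω z' t‖ ≤ (2 * Yc ω z' t) * (3 / 2 * ‖Zc ω z t‖) :=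
          mul_le_mul (by linarith [h1.1]) (by linarith) (norm_nonneg _) (by linarith)
      _ = _ := by ring

/-- Apply `Koebe C` to `f = ft ω t`, `ζ = gt ω z t` (`Alive.ft_gt`, `Up_ft`, `image_ft`, `alive_ft`, `gt_ft`).  `near`: `z' = f ζ'` with
`ζ' ∈ ball ζ (Y/2)`, so `Y/2 ≤ Y' ≤ 3Y/2`, `|Z|/2 ≤ |Z'| ≤ 3|Z|/2`.  `far`: `Y' ≤ 2 M Y`, `C + 1 ≤ 2 C`.
`lip`: `ball z (Υ'/C - ‖z' - z‖) ⊆ ball z' (Υ'/C) ⊆ Dom`. -/
theorem kf_main (hC : Koebe C) : KoebeF (2 * C) := by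
  have h2 := hC.two_le
  have hsub : ∀ ω z t, Alive ω z t → ball z (Up ω z t / (2 * C)) ⊆ ball z (Up ω z t / C) := fun ω z t h =>
    ball_subset_ball (div_le_div_of_nonneg_left Up_nonneg (by linarith) (by linarith))
  refine ⟨by linarith, fun ω z t h => (hsub ω z t h).trans (kf_ball hC h), fun ω z t r h hr => kf_le hC h hr,
    fun ω z t h z' hz' => ?_, fun ω z z' t M h h' hM hd => ?_, fun ω z z' t h h' => ?_⟩
  · obtain ⟨ζ', hζ', rfl⟩ := kf_quarter hC h (hsub ω z t h hz')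
    have hH := kf_half h hζ'
    have h' : Alive ω (ft ω t ζ') t := alive_ft h.1 hH
    have hg : gt ω (ft ω t ζ') t = ζ' := gt_ft h.1 hH
    have hY : 0 < Yc ω z t := alive_iff.1 h
    have hd : ‖ζ' - gt ω z t‖ ≤ Yc ω z t / 2 := (mem_ball_iff_norm.1 hζ').le
    obtain ⟨n1, n2, n3, n4⟩ := hC.near (ft ω t) (differentiableOn_ft h.1) (injOn_ft h.1) _ (kf_mem h) ζ'
      (ball_subset_closedBall hζ')
    rw [h.ft_gt] at n3 n4
    obtain ⟨s1, s2⟩ := kf_Sc h h' (by rwa [hg])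
    have i1 : Yc ω z t - ‖ζ' - gt ω z t‖ ≤ ζ'.im ∧ ζ'.im ≤ Yc ω z t + ‖ζ' - gt ω z t‖ := kf_im _ _
    have hS : 0 ≤ Sc ω z t := Sc_mem.1
    have hS' : 0 ≤ Sc ω (ft ω t ζ') t := Sc_mem.1
    rw [hg, Up_ft h.1 hH, kf_Up h]
    have hD := norm_nonneg (deriv (ft ω t) (gt ω z t))
    have hD' := norm_nonneg (deriv (ft ω t) ζ')
    have hE := norm_nonneg (ζ' - gt ω z t)
    have hE' := norm_nonneg (ft ω t ζ' - z)
    generalize ‖deriv (ft ω t) (gt ω z t)‖ = D at *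
    generalize ‖deriv (ft ω t) ζ'‖ = D' at *
    generalize ‖ζ' - gt ω z t‖ = E at *
    generalize ‖ft ω t ζ' - z‖ = E' at *
    refine ⟨h', hd, ?_, ?_, ?_, ?_, by nlinarith, by nlinarith⟩
    · calc Yc ω z t * D * E = Yc ω z t * (D * E) := by ring
        _ ≤ Yc ω z t * (2 * (C * E')) := by
            refine mul_le_mul_of_nonneg_left ?_ hY.le
            nlinarith [mul_nonneg hD hE]
        _ = _ := by ring
    · calc Yc ω z t * E' ≤ Yc ω z t * (2 * (C * D * E)) := mul_le_mul_of_nonneg_left (by linarith) hY.le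
        _ = _ := by ring
    · calc ζ'.im * D' ≤ (2 * Yc ω z t) * (C * D) := mul_le_mul (by linarith [i1.2]) n1 hD' (by linarith)
        _ = _ := by ring
    · calc Yc ω z t * D ≤ (2 * ζ'.im) * (C * D') := mul_le_mul (by linarith [i1.1]) n2 hD (by linarith [i1.1])
        _ = _ := by ring
  · obtain ⟨n1, n2⟩ := hC.far (ft ω t) (differentiableOn_ft h.1) (injOn_ft h.1) _ (kf_mem h) _ (kf_mem h') M hM hd
    rw [h.ft_gt, h'.ft_gt] at n2
    have hY : 0 < Yc ω z t := alive_iff.1 h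
    have i1 : Yc ω z' t ≤ Yc ω z t + ‖gt ω z' t - gt ω z t‖ := (kf_im _ _).2
    have i2 : ‖gt ω z' t - gt ω z t‖ ≤ M * Yc ω z t :=
      hd.trans (mul_le_mul_of_nonneg_left (min_le_left _ _) (by linarith))
    have i3 : Yc ω z' t ≤ 2 * M * Yc ω z t := by nlinarith
    have p0 : 0 ≤ M ^ C := Real.rpow_nonneg (by linarith) _
    have p1 : M ^ C * M ≤ M ^ (2 * C) := by
      rw [← Real.rpow_add_one (by linarith)]
      exact Real.rpow_le_rpow_of_exponent_le hM (by linarith)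
    have p2 : M ^ C ≤ M ^ (2 * C) := Real.rpow_le_rpow_of_exponent_le hM (by linarith)
    have hU : 0 ≤ Up ω z t := Up_nonneg
    constructor
    · have n3 : ‖z' - z‖ ≤ C * M ^ C * Up ω z t := by rw [kf_Up h]; exact n2
      refine n3.trans (mul_le_mul_of_nonneg_right ?_ hU)
      exact mul_le_mul (by linarith) p2 p0 (by linarith)
    · calc Up ω z' t ≤ (2 * M * Yc ω z t) * (C * M ^ C * ‖deriv (ft ω t) (gt ω z t)‖) := by
            rw [kf_Up h']
            exact mul_le_mul i3 n1 (norm_nonneg _) (by positivity)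
        _ = 2 * C * (M ^ C * M) * Up ω z t := by rw [kf_Up h]; ring
        _ ≤ _ := mul_le_mul_of_nonneg_right (mul_le_mul_of_nonneg_left p1 (by linarith)) hU
  · have h1 : ball z (Up ω z' t / C - ‖z' - z‖) ⊆ ball z' (Up ω z' t / C) :=
      ball_subset_ball' (by rw [dist_comm, dist_eq_norm]; linarith)
    have h3 := kf_le hC h (h1.trans (kf_ball hC h'))
    have h4 : Up ω z' t / C ≤ 2 * (Up ω z t + ‖z' - z‖) := by linarith [norm_nonneg (z' - z)]
    rw [div_le_iff₀ (by linarith)] at h4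
    linarith

end Crest.Agent.R162
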