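import Crest.Agent.R162.Defs
import Crest.Agent.Lib.RMT.Inverse

/-!
# Row 162, block K: a hydrodynamically normalised automorphism of the half-plane is the identity
-/

set_option autoImplicit false

open scoped Topology ComplexConjugate
open Set Filter Metric

noncomputable section
namespace Crest.Agent.R162

variable {F : ℂ → ℂ} {z w : ℂ}

theorem ki_sq (a b : ℂ) : ‖a - conj b‖ ^ 2 = ‖a - b‖ ^ 2 + 4 * (a.im * b.im) := by
  rw [Complex.sq_norm, Complex.sq_norm, Complex.normSq_apply, Complex.normSq_apply]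
  simp only [Complex.sub_re, Complex.sub_im, Complex.conj_re, Complex.conj_im]
  ring

theorem ki_lt {a b : ℂ} (ha : a ∈ HH) (hb : b ∈ HH) : ‖a - b‖ < ‖a - conj b‖ := by
  refine lt_of_pow_lt_pow_left₀ 2 (norm_nonneg _) ?_
  rw [ki_sq]
  have : 0 < a.im * b.im := mul_pos ha hb
  linarith

theorem ki_ne {a b : ℂ} (ha : a ∈ HH) (hb : b ∈ HH) : a - conj b ≠ 0 :=
  norm_pos_iff.1 ((norm_nonneg _).trans_lt (ki_lt ha hb))

theorem ki_open : IsOpen HH := isOpen_lt continuous_const Complex.continuous_im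

/-- Schwarz-Pick.  `φ u = (w - conj w * u) / (1 - u)` maps the unit disc to `HH` (`Im φ u = Im w (1 - |u|²) / |1 - u|²`), `φ 0 = w`,
`φ ((z - w) / (z - conj w)) = z`; Schwarz lemma (`Complex.norm_le_norm_of_mapsTo_ball`) for `u ↦ (F (φ u) - F w) / (F (φ u) - conj (F w))`;
`‖a - conj b‖² = ‖a - b‖² + 4 Im a Im b`. -/
theorem ki_pick (hF : DifferentiableOn ℂ F HH) (hm : MapsTo F HH HH) (hz : z ∈ HH) (hw : w ∈ HH) :
    z.im * w.im * ‖F z - conj (F w)‖ ^ 2 ≤ (F z).im * (F w).im * ‖z - conj w‖ ^ 2 := by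
  have hne : ∀ u ∈ ball (0 : ℂ) 1, 1 - u ≠ 0 := by
    intro u hu e
    rw [mem_ball_zero_iff, ← sub_eq_zero.1 e, norm_one] at hu
    exact lt_irrefl _ hu
  have hφ : MapsTo (fun u : ℂ => (w - conj w * u) / (1 - u)) (ball 0 1) HH := by
    intro u hu
    have h1 : Complex.normSq u < 1 := by
      rw [← Complex.sq_norm]
      exact pow_lt_one₀ (norm_nonneg _) (mem_ball_zero_iff.1 hu) two_ne_zero
    have h2 : 0 < Complex.normSq (1 - u) := Complex.normSq_pos.2 (hne u hu)
    have h3 : 0 < w.im := hw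
    show 0 < ((w - conj w * u) / (1 - u)).im
    rw [Complex.div_im, ← sub_div]
    refine div_pos ?_ h2
    rw [Complex.normSq_apply] at h1
    simp only [Complex.sub_re, Complex.sub_im, Complex.mul_re, Complex.mul_im, Complex.conj_re, Complex.conj_im,
      Complex.one_re, Complex.one_im]
    nlinarith [mul_pos h3 (sub_pos.2 h1)]
  have hφd : DifferentiableOn ℂ (fun u : ℂ => (w - conj w * u) / (1 - u)) (ball 0 1) :=
    DifferentiableOn.div (by fun_prop) (by fun_prop) hne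
  have hG : DifferentiableOn ℂ (fun u : ℂ => F ((w - conj w * u) / (1 - u))) (ball 0 1) := hF.comp hφd hφ
  have hu : ‖(z - w) / (z - conj w)‖ < 1 := by
    rw [norm_div, div_lt_one (norm_pos_iff.2 (ki_ne hz hw))]
    exact ki_lt hz hw
  have h := Complex.norm_le_norm_of_mapsTo_ball
    (f := fun u : ℂ => (F ((w - conj w * u) / (1 - u)) - F w) / (F ((w - conj w * u) / (1 - u)) - conj (F w)))
    (R := 1) ((hG.sub_const _).div (hG.sub_const _) fun u hu => ki_ne (hm (hφ hu)) (hm hw)) (fun u hu => by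
      rw [mem_closedBall_zero_iff, norm_div, div_le_one (norm_pos_iff.2 (ki_ne (hm (hφ hu)) (hm hw)))]
      exact (ki_lt (hm (hφ hu)) (hm hw)).le) (by simp) hu
  have e : (w - conj w * ((z - w) / (z - conj w))) / (1 - (z - w) / (z - conj w)) = z := by
    rw [div_eq_iff (hne _ (mem_ball_zero_iff.2 hu))]
    have := ki_ne hz hw
    field_simp
    ring
  simp only [e] at h
  rw [norm_div, norm_div, div_le_div_iff₀ (norm_pos_iff.2 (ki_ne (hm hz) (hm hw))) (norm_pos_iff.2 (ki_ne hz hw))] at h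
  have h2 := pow_le_pow_left₀ (by positivity) h 2
  rw [mul_pow, mul_pow] at h2
  have h3 := ki_sq z w
  have h4 := ki_sq (F z) (F w)
  rw [← sub_eq_iff_eq_add] at h3 h4
  rw [← h3, ← h4] at h2
  linarith

/-- Julia's lemma at infinity: divide `ki_pick` with `w = u n` by `n³` and let `n → ∞`. -/
theorem ki_julia (hF : DifferentiableOn ℂ F HH) (hm : MapsTo F HH HH) {u : ℕ → ℂ} (hu : ∀ n, u n ∈ HH)
    (h1 : Tendsto (fun n : ℕ => u n / ((n : ℂ) + 1)) atTop (𝓝 Complex.I))
    (h2 : Tendsto (fun n : ℕ => F (u n) / ((n : ℂ) + 1)) atTop (𝓝 Complex.I)) (hz : z ∈ HH) : z.im ≤ (F z).im := by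
  have hN : ∀ a : ℂ, Tendsto (fun n : ℕ => a / ((n : ℂ) + 1)) atTop (𝓝 0) := fun a => by
    simpa [div_eq_mul_inv] using (tendsto_one_div_add_atTop_nhds_zero_nat (𝕜 := ℂ)).const_mul a
  have key : ∀ (a : ℂ) {v v' : ℕ → ℂ}, Tendsto v atTop (𝓝 Complex.I) → Tendsto v' atTop (𝓝 Complex.I) →
      Tendsto (fun n : ℕ => (v n).im * ‖a / ((n : ℂ) + 1) - conj (v' n)‖ ^ 2) atTop (𝓝 1) := by
    intro a v v' hv hv'
    have h3 := ((Complex.continuous_im.tendsto _).comp hv).mul
      (((hN a).sub ((Complex.continuous_conj.tendsto _).comp hv')).norm.pow 2)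
    simpa using h3
  have h3 := (key (F z) h1 h2).const_mul z.im
  have h4 := (key z h2 h1).const_mul (F z).im
  rw [mul_one] at h3 h4
  refine le_of_tendsto_of_tendsto' h3 h4 fun n => ?_
  have h5 := ki_pick hF hm hz (hu n)
  have hn : (0 : ℝ) < n + 1 := by positivity
  have e : ((n : ℂ) + 1) = ((n + 1 : ℝ) : ℂ) := by simp
  have e1 : ∀ a b : ℂ, ‖a / ((n : ℂ) + 1) - conj (b / ((n : ℂ) + 1))‖ = ‖a - conj b‖ / (n + 1) := by
    intro a b
    rw [e, map_div₀, Complex.conj_ofReal, ← sub_div, norm_div, Complex.norm_real, Real.norm_of_nonneg hn.le]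
  have e2 : ∀ a : ℂ, (a / ((n : ℂ) + 1)).im = a.im / (n + 1) := fun a => by rw [e, Complex.div_ofReal_im]
  rw [e1, e1, e2, e2]
  calc z.im * ((u n).im / (n + 1) * (‖F z - conj (F (u n))‖ / (n + 1)) ^ 2)
      = z.im * (u n).im * ‖F z - conj (F (u n))‖ ^ 2 / (n + 1) ^ 3 := by field_simp
    _ ≤ (F z).im * (F (u n)).im * ‖z - conj (u n)‖ ^ 2 / (n + 1) ^ 3 := by gcongr
    _ = _ := by field_simp

/-- `ki_julia` for `F` (`u n = (n + 1) i`) and for its inverse (`exists_holomorphic_inverse`, `u n = F ((n + 1) i)`) gives `Im (F z - z) = 0` on `HH`; so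
`F z - z` is constant (`AnalyticOnNhd.eq_const_of_im_eq_const`), and the constant is `0`. -/
theorem ki_id (hF : DifferentiableOn ℂ F HH) (hi : InjOn F HH) (hs : F '' HH = HH)
    (h : Tendsto (fun z => F z - z) (cocompact ℂ ⊓ 𝓟 HH) (𝓝 0)) (hz : z ∈ HH) : F z = z := by
  have hm : MapsTo F HH HH := fun z hz => hs ▸ mem_image_of_mem F hz
  obtain ⟨-, g, hg, hgF⟩ := Lib.RMT.exists_holomorphic_inverse ki_open hF hi
  rw [hs] at hg
  have hgm : MapsTo g HH HH := by
    intro w hw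
    rw [← hs] at hw
    obtain ⟨z, hz, rfl⟩ := hw
    rwa [hgF z hz]
  have hn0 : ∀ n : ℕ, ((n : ℂ) + 1) ≠ 0 := fun n => Nat.cast_add_one_ne_zero n
  have hu : ∀ n : ℕ, ((n : ℂ) + 1) * Complex.I ∈ HH := fun n => by
    show 0 < (((n : ℂ) + 1) * Complex.I).im
    simp only [Complex.mul_im, Complex.add_re, Complex.natCast_re, Complex.one_re, Complex.I_im, Complex.I_re, mul_one,
      mul_zero, add_zero]
    positivity
  have ht : Tendsto (fun n : ℕ => ((n : ℂ) + 1) * Complex.I) atTop (cocompact ℂ ⊓ 𝓟 HH) := by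
    refine tendsto_inf.2 ⟨?_, tendsto_principal.2 (Eventually.of_forall hu)⟩
    rw [← cobounded_eq_cocompact, ← tendsto_norm_atTop_iff_cobounded]
    have e : ∀ n : ℕ, ‖((n : ℂ) + 1) * Complex.I‖ = n + 1 := fun n => by
      rw [norm_mul, Complex.norm_I, mul_one]
      exact_mod_cast Complex.norm_natCast (n + 1)
    simp only [e]
    exact tendsto_atTop_add_const_right _ _ tendsto_natCast_atTop_atTop
  have h0 := h.comp ht
  have h1 : Tendsto (fun n : ℕ => ((n : ℂ) + 1) * Complex.I / ((n : ℂ) + 1)) atTop (𝓝 Complex.I) := by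
    simp only [mul_div_cancel_left₀ _ (hn0 _)]
    exact tendsto_const_nhds
  have h2 : Tendsto (fun n : ℕ => F (((n : ℂ) + 1) * Complex.I) / ((n : ℂ) + 1)) atTop (𝓝 Complex.I) := by
    have h3 := (h0.mul (tendsto_one_div_add_atTop_nhds_zero_nat (𝕜 := ℂ))).add h1
    rw [mul_zero, zero_add] at h3
    refine h3.congr fun n => ?_
    simp only [Function.comp]
    ring
  have him : ∀ z ∈ HH, (F z - z).im = 0 := by
    intro z hz
    have h3 := ki_julia hF hm hu h1 h2 hz
    have h4 := ki_julia hg hgm (fun n => hm (hu n)) h2 (by simpa only [hgF _ (hu _)] using h1) (hm hz)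
    rw [hgF z hz] at h4
    rw [Complex.sub_im]
    linarith
  obtain ⟨c, hc⟩ := AnalyticOnNhd.eq_const_of_im_eq_const ((hF.sub differentiableOn_id).analyticOnNhd ki_open) him
    ki_open ⟨⟨z, hz⟩, (convex_halfSpace_im_gt 0).isPreconnected⟩
  have h3 : c = 0 := by
    refine tendsto_nhds_unique tendsto_const_nhds (h0.congr fun n => ?_)
    exact hc _ (hu n)
  have h4 : F z - z = c := hc z hz
  rw [h3] at h4
  exact sub_eq_zero.1 h4

end Crest.Agent.R162
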