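import Crest.Agent.R162.K.Str
import Crest.Agent.R162.K.Id

/-!
# Row 162, block K: the trace and the flow
-/

set_option autoImplicit false

open scoped Topology
open Set Filter Metric

noncomputable section
namespace Crest.Agent.R162

open Crest.ProbabilityR.Loewner

variable {ω : Path} {γ : ℝ → ℂ} {s t : ℝ}

theorem kt_anti (hst : s ≤ t) : survivingDomain γ t ⊆ survivingDomain γ s := by
  intro z hz
  have h : halfPlane \ γ '' Icc 0 t ⊆ halfPlane \ γ '' Icc 0 s :=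
    sdiff_subset_sdiff_right (image_mono (Icc_subset_Icc_right hst))
  exact ⟨h hz.1, fun hb => hz.2 (hb.subset (connectedComponentIn_mono z h))⟩

theorem kt_zero (h : γ 0 = 0) : survivingDomain γ 0 = HH := by
  have h1 : halfPlane \ γ '' Icc 0 0 = HH := by
    ext z
    simp only [Icc_self, image_singleton, h, Set.mem_sdiff, mem_singleton_iff]
    refine ⟨fun h => h.1, fun h => ⟨h, fun e => ?_⟩⟩
    rw [e] at h
    exact lt_irrefl _ (show (0 : ℝ) < 0 from h)
  ext z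
  simp only [survivingDomain, h1, mem_ofPred_eq]
  refine ⟨fun h => h.1, fun hz => ⟨hz, fun hb => ?_⟩⟩
  have h2 : IsPreconnected HH := (convex_halfSpace_im_gt 0).isPreconnected
  rw [h2.connectedComponentIn hz] at hb
  obtain ⟨r, hr⟩ := hb.subset_closedBall 0
  have h3 : ((|r| + 1 : ℝ) : ℂ) * Complex.I ∈ HH := by
    show 0 < (((|r| + 1 : ℝ) : ℂ) * Complex.I).im
    simp only [Complex.mul_im, Complex.ofReal_re, Complex.I_im, Complex.ofReal_im, Complex.I_re]
    have := abs_nonneg r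
    linarith
  have h4 := mem_closedBall_zero_iff.1 (hr h3)
  rw [norm_mul, Complex.norm_I, Complex.norm_real, Real.norm_of_nonneg (by positivity)] at h4
  linarith [le_abs_self r]

/-- a connected subset of the half-plane off the curve which meets the surviving domain is contained in it -/
theorem kt_conn {B : Set ℂ} (hB : IsPreconnected B) (h : B ⊆ halfPlane \ γ '' Icc 0 t)
    (hne : (B ∩ survivingDomain γ t).Nonempty) : B ⊆ survivingDomain γ t := by
  obtain ⟨z, hz, hz'⟩ := hne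
  intro w hw
  refine ⟨h hw, ?_⟩
  have h1 : w ∈ connectedComponentIn (halfPlane \ γ '' Icc 0 t) z := hB.subset_connectedComponentIn hz h hw
  rw [← connectedComponentIn_eq h1]
  exact hz'.2

/-- `g 0 = id` on `HH` (`kt_zero`, `ki_id`); for `z` surviving at `t`, `s ↦ g s z` is a `Sol` (`kt_anti`), so `z` is alive and `gt ω z t = g t z`.
Conversely if `z` is alive then `gt ω z t = g t z'` with `z'` surviving, and `injOn_gt`. -/
theorem kt_dom (h : IsChordalTrace ω γ) (ht : 0 ≤ t) : survivingDomain γ t = Dom ω t := by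
  obtain ⟨g, hg, hode, -⟩ := h.maps
  have hg0 : ∀ z ∈ HH, g 0 z = z := by
    intro z hz
    obtain ⟨h1, h2, h3, h4⟩ := hg 0 le_rfl
    rw [kt_zero h.start] at h1 h2 h3 h4
    exact ki_id h1 h2 h3 h4 hz
  have hsol : ∀ z ∈ survivingDomain γ t, Sol ω z t fun s => g s z := by
    intro z hz
    have hd : ∀ s ∈ Icc 0 t, HasDerivWithinAt (fun s => g s z) (2 / (g s z - ω s)) (Ici 0) s :=
      fun s hs => hode z hz.1.1 s hs.1 (kt_anti hs.2 hz)
    refine ⟨hg0 z hz.1.1, fun s hs => ((hd s hs).continuousWithinAt).mono Icc_subset_Ici_self, fun s hs => ?_,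
      fun s hs => (hd s (Ico_subset_Icc_self hs)).mono (Ici_subset_Ici.2 hs.1)⟩
    have : g s z ∈ halfPlane := by
      rw [← (hg s hs.1).2.2.1]
      exact mem_image_of_mem _ (kt_anti hs.2 hz)
    exact this
  have hsub : survivingDomain γ t ⊆ Dom ω t := fun z hz => ⟨ht, _, hsol z hz⟩
  refine hsub.antisymm fun z hz => ?_
  have h1 : gt ω z t ∈ halfPlane := alive_iff.1 hz
  rw [← (hg t ht).2.2.1] at h1
  obtain ⟨z', hz', e⟩ := h1
  have e1 : gt ω z' t = g t z' := (hsol z' hz').gt_eq ⟨ht, le_rfl⟩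
  have e2 : z' = z := injOn_gt (hsub hz') hz (e1.trans e)
  exact e2 ▸ hz'

theorem kt_not_mem (h : IsChordalTrace ω γ) (hs : s ∈ Icc 0 t) : γ s ∉ Dom ω t := by
  rw [← kt_dom h (hs.1.trans hs.2)]
  exact fun hz => hz.1.2 ⟨s, hs, rfl⟩

theorem kt_mem_closure (h : IsChordalTrace ω γ) (hs : s ∈ Icc 0 t) : γ t ∈ closure (Dom ω s) := by
  have ht := hs.1.trans hs.2
  rw [← kt_dom h hs.1]
  obtain ⟨g, hg, -, hlim⟩ := h.maps
  refine mem_closure_of_tendsto (hlim t ht) ?_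
  filter_upwards [self_mem_nhdsWithin] with y hy
  refine kt_anti hs.2 (Function.invFunOn_mem ?_)
  have : ((ω t : ℝ) : ℂ) + y * Complex.I ∈ halfPlane := by
    show 0 < (((ω t : ℝ) : ℂ) + y * Complex.I).im
    simpa using hy
  rw [← (hg t ht).2.2.1] at this
  exact this

theorem kt_open (h : IsChordalTrace ω γ) (t : ℝ) : IsOpen (halfPlane \ γ '' Icc 0 t) :=
  (isOpen_lt continuous_const Complex.continuous_im).sdiff
    (isCompact_Icc.image_of_continuousOn (h.continuousOn.mono Icc_subset_Ici_self)).isClosed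

/-- otherwise a small ball about `z` lies in the open set `HH \ γ [0, t]` and meets `Dom ω t`; `kt_conn`, `isOpen_Dom`. -/
theorem kt_frontier (h : IsChordalTrace ω γ) (hs : s ∈ Icc 0 t) {z : ℂ} (hz : z ∈ Dom ω s)
    (hz' : z ∈ frontier (Dom ω t)) : z ∈ γ '' Icc s t := by
  have ht := hs.1.trans hs.2
  by_contra hn
  rw [← kt_dom h hs.1] at hz
  have h1 : z ∈ halfPlane \ γ '' Icc 0 t := by
    refine ⟨hz.1.1, ?_⟩
    rintro ⟨u, hu, rfl⟩
    rcases le_total u s with h2 | h2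
    · exact hz.1.2 ⟨u, ⟨hu.1, h2⟩, rfl⟩
    · exact hn ⟨u, ⟨h2, hu.2⟩, rfl⟩
  obtain ⟨r, hr, hb⟩ := Metric.isOpen_iff.1 (kt_open h t) z h1
  rw [isOpen_Dom.frontier_eq, ← kt_dom h ht] at hz'
  exact hz'.2 (kt_conn (convex_ball z r).isPreconnected hb
    (mem_closure_iff.1 hz'.1 _ isOpen_ball (mem_ball_self hr)) (mem_ball_self hr))

/-- `u` = first time with `‖γ u - x‖ = ρ`; `ball x ρ` misses `γ [0, u]` and meets `Dom ω u` (`kt_mem_closure`), so `x` is alive at `u` (`kt_conn`);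
`γ u ∉ Dom ω u ⊇ ball x (Υ / C)`. -/
theorem kt_hit {C : ℝ} (hC : KoebeF C) (h : IsChordalTrace ω γ) {x : ℂ} {ρ T : ℝ} (ht : t ∈ Icc 0 T)
    (hx : ‖γ t - x‖ < ρ) (hρ : 2 * ρ ≤ x.im) : ω ∈ Hit x (C * ρ) T ∧ hitU x (C * ρ) T ω ≤ t := by
  have hρ0 : 0 < ρ := (norm_nonneg _).trans_lt hx
  have hc : ContinuousOn (fun s => ‖γ s - x‖) (Ici 0) := (h.continuousOn.sub continuousOn_const).norm
  have h0 : ρ ≤ ‖γ 0 - x‖ := by
    rw [h.start, zero_sub, norm_neg]
    linarith [Complex.im_le_norm x]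
  have hiv : ∀ s, 0 ≤ s → ‖γ s - x‖ ≤ ρ → ∃ u ∈ Icc 0 s, ‖γ u - x‖ = ρ := fun s hs hs' =>
    intermediate_value_Icc' hs (hc.mono Icc_subset_Ici_self) ⟨hs', h0⟩
  have hK : IsCompact (Icc 0 t ∩ (fun s => ‖γ s - x‖) ⁻¹' {ρ}) :=
    isCompact_Icc.of_isClosed_subset
      ((hc.mono Icc_subset_Ici_self).preimage_isClosed_of_isClosed isClosed_Icc isClosed_singleton) inter_subset_left
  obtain ⟨u, ⟨hu, hu'⟩, hmin⟩ := hK.exists_isLeast (hiv t ht.1 hx.le)
  have hu'' : ‖γ u - x‖ = ρ := hu'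
  have hb : ball x ρ ⊆ halfPlane \ γ '' Icc 0 u := by
    intro z hz
    rw [mem_ball_iff_norm] at hz
    refine ⟨?_, ?_⟩
    · have h1 := (abs_le.1 (Complex.abs_im_le_norm (z - x))).1
      rw [Complex.sub_im] at h1
      show 0 < z.im
      linarith
    · rintro ⟨s, hs, rfl⟩
      obtain ⟨v, hv, hv'⟩ := hiv s hs.1 hz.le
      have h1 : u ≤ v := hmin ⟨⟨hv.1, hv.2.trans (hs.2.trans hu.2)⟩, hv'⟩
      have h2 : s = u := le_antisymm hs.2 (h1.trans hv.2)
      rw [h2] at hz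
      exact hz.ne hu''
  have hcl := kt_mem_closure h hu
  rw [← kt_dom h hu.1] at hcl
  have hal : Alive ω x u := by
    have := kt_conn (convex_ball x ρ).isPreconnected hb
      (mem_closure_iff.1 hcl _ isOpen_ball (mem_ball_iff_norm.2 hx)) (mem_ball_self hρ0)
    rw [kt_dom h hu.1] at this
    exact this
  have hC0 : 0 < C := by linarith [hC.two_le]
  have hUp : Up ω x u ≤ C * ρ := by
    by_contra hlt
    refine kt_not_mem h ⟨hu.1, le_rfl⟩ (hC.ball_sub ω x u hal ?_)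
    rw [mem_ball_iff_norm, hu'', lt_div_iff₀ hC0]
    linarith [not_le.1 hlt]
  have huT : u ∈ Icc 0 T := ⟨hu.1, hu.2.trans ht.2⟩
  refine ⟨⟨u, huT, hal, hUp⟩, le_trans (csInf_le ⟨0, ?_⟩ (Or.inl ⟨huT, hal, hUp⟩)) hu.2⟩
  rintro s (hs | hs)
  · exact hs.1.1
  · rw [mem_singleton_iff.1 hs]
    exact ht.1.trans ht.2

end Crest.Agent.R162
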