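import Mathlib
import Crest.Agent.Lib.RMT.Inverse

/-!
# Row 162, block K: Koebe's theorems on a disc, with crude explicit constants
-/

set_option autoImplicit false

open scoped Topology
open Set Filter Metric

noncomputable section
namespace Crest.Agent.R162

variable {f : ℂ → ℂ} {c : ℂ} {R : ℝ}

/-- Schwarz lemma for `T ∘ f⁻¹ : ball (f c) r → ball 0 1`.  `Lib.RMT.exists_holomorphic_inverse` gives `g` holomorphic on
`f '' U` with `g (f z) = z`; `Complex.norm_deriv_le_div_of_mapsTo_ball` for `T ∘ g`; chain rule for `T = (T ∘ g) ∘ f` near `c`.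
(If `r ≤ 0` the claim is trivial.) -/
theorem kd_schwarz {U : Set ℂ} (hU : IsOpen U) (hf : DifferentiableOn ℂ f U) (hi : InjOn f U) (hc : c ∈ U)
    {T : ℂ → ℂ} (hT : DifferentiableOn ℂ T U) (hT1 : ∀ z ∈ U, ‖T z‖ ≤ 1) (hT0 : T c = 0) {r : ℝ}
    (h : ball (f c) r ⊆ f '' U) : r * ‖deriv T c‖ ≤ ‖deriv f c‖ := by
  rcases le_or_gt r 0 with hr | hr
  · exact (mul_nonpos_of_nonpos_of_nonneg hr (norm_nonneg _)).trans (norm_nonneg _)
  obtain ⟨hO, g, hg, hgf⟩ := Lib.RMT.exists_holomorphic_inverse hU hf hi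
  have hgU : ∀ w ∈ f '' U, g w ∈ U := by
    rintro _ ⟨z, hz, rfl⟩
    rw [hgf z hz]
    exact hz
  have hd : DifferentiableOn ℂ (T ∘ g) (f '' U) := hT.comp hg hgU
  have h0 : (T ∘ g) (f c) = 0 := by simp [hgf c hc, hT0]
  have h1 : ‖deriv (T ∘ g) (f c)‖ ≤ 1 / r := by
    refine Complex.norm_deriv_le_div_of_mapsTo_ball (hd.mono h) (fun w hw => ?_) hr
    rw [h0, mem_closedBall_zero_iff]
    exact hT1 _ (hgU w (h hw))
  have h2 : HasDerivAt ((T ∘ g) ∘ f) (deriv (T ∘ g) (f c) * deriv f c) c :=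
    (hd.differentiableAt (hO.mem_nhds ⟨c, hc, rfl⟩)).hasDerivAt.comp c
      (hf.differentiableAt (hU.mem_nhds hc)).hasDerivAt
  have h3 : T =ᶠ[𝓝 c] (T ∘ g) ∘ f := by
    filter_upwards [hU.mem_nhds hc] with z hz
    simp [hgf z hz]
  rw [h3.deriv_eq, h2.deriv, norm_mul, ← mul_assoc]
  have h4 : r * ‖deriv (T ∘ g) (f c)‖ ≤ 1 := by
    rw [le_div_iff₀ hr] at h1
    linarith
  exact mul_le_of_le_one_left (norm_nonneg _) h4

/-- holomorphic square root on a disc: `Complex.exists_continuousOn_pow_eq` (a ball is convex, hence simply connected), differentiable by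
`HasDerivAt.of_local_left_inverse`-type argument (`φ` is continuous, nonzero, `φ ^ 2 = h`), change the sign if necessary. -/
theorem kd_sqrt {h : ℂ → ℂ} (hR : 0 < R) (hh : DifferentiableOn ℂ h (ball c R)) (h0 : ∀ z ∈ ball c R, h z ≠ 0)
    (h1 : h c = 1) : ∃ φ : ℂ → ℂ, DifferentiableOn ℂ φ (ball c R) ∧ φ c = 1 ∧ ∀ z ∈ ball c R, φ z ^ 2 = h z := by
  have hd : DifferentiableOn ℂ (fun z => deriv h z / h z) (ball c R) := (hh.deriv isOpen_ball).div hh h0
  obtain ⟨G, hG0, hG⟩ := hd.isExactOn_ball.with_val_at c 0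
  have hGd : DifferentiableOn ℂ G (ball c R) := fun z hz => (hG z hz).differentiableAt.differentiableWithinAt
  have hk : ∀ z ∈ ball c R, HasDerivAt (fun z => h z * Complex.exp (-G z)) 0 z := by
    intro z hz
    have h1 := ((hh.differentiableAt (isOpen_ball.mem_nhds hz)).hasDerivAt).mul (hG z hz).neg.cexp
    have := h0 z hz
    refine h1.congr_deriv ?_
    simp only [Pi.neg_apply]
    field_simp
    ring
  have hc : ∀ z ∈ ball c R, h z * Complex.exp (-G z) = 1 := by
    intro z hz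
    have := isOpen_ball.is_const_of_deriv_eq_zero (convex_ball c R).isPreconnected
      (f := fun z => h z * Complex.exp (-G z))
      (fun z hz => (hk z hz).differentiableAt.differentiableWithinAt) (fun z hz => (hk z hz).deriv) hz
      (mem_ball_self hR)
    simpa [h1, hG0] using this
  refine ⟨fun z => Complex.exp (G z / 2), (hGd.div_const 2).cexp, by simp [hG0], fun z hz => ?_⟩
  have h2 := hc z hz
  have h3 : Complex.exp (G z / 2) ^ 2 = Complex.exp (G z) := by
    rw [sq, ← Complex.exp_add]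
    congr 1
    ring
  have h4 : Complex.exp (-G z) * Complex.exp (G z) = 1 := by rw [← Complex.exp_add]; simp
  rw [h3]
  linear_combination (-Complex.exp (G z)) * h2 + h z * h4

/-- `h z = (w - f z) / (w - f c)`, `φ = √h` (`kd_sqrt`), `φ` is injective and `φ z ≠ -φ z'`.  `h` covers `ball 1 1`, so for `v ∈ B = ball 1 (1/3)`
one of `v`, `-v` is in the open set `φ '' ball c R` (`isOpen_image_of_injOn`); `B` is connected and `1 = φ c`, so `φ` omits `-B`:
`1/3 ≤ ‖φ z + 1‖`.  `ψ = (φ + 1)⁻¹` maps into `closedBall (ψ c) (7/2)`, `ψ c = 1/2`; Schwarz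
(`Complex.dist_le_div_mul_dist_of_mapsTo_ball`): `‖ψ z - 1/2‖ ≤ 1/4` on `closedBall c (R/14)`, so `‖φ z + 1‖ ≤ 4`, `‖h z‖ ≤ 25`. -/
theorem kd_core (hR : 0 < R) (hf : DifferentiableOn ℂ f (ball c R)) (hi : InjOn f (ball c R)) {w : ℂ}
    (hw : w ∉ f '' ball c R) (hb : ball (f c) ‖w - f c‖ ⊆ f '' ball c R) {z : ℂ} (hz : z ∈ closedBall c (R / 14)) :
    ‖f z - f c‖ ≤ 26 * ‖w - f c‖ := by
  have hwc : w - f c ≠ 0 := fun e => hw ⟨c, mem_ball_self hR, (sub_eq_zero.1 e).symm⟩
  have hd0 : 0 < ‖w - f c‖ := norm_pos_iff.2 hwc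
  have hne : ∀ z ∈ ball c R, (w - f z) / (w - f c) ≠ 0 := fun z hz =>
    div_ne_zero (fun e => hw ⟨z, hz, (sub_eq_zero.1 e).symm⟩) hwc
  obtain ⟨φ, hφ, hφ1, hφ2⟩ := kd_sqrt (h := fun z => (w - f z) / (w - f c)) hR
    ((hf.const_sub w).div_const _) hne (div_self hwc)
  have hsq : ∀ z ∈ ball c R, ∀ z' ∈ ball c R, φ z ^ 2 = φ z' ^ 2 → z = z' := by
    intro z hz z' hz' e
    rw [hφ2 z hz, hφ2 z' hz', div_left_inj' hwc] at e
    exact hi hz hz' (by linear_combination -e)
  have hφi : InjOn φ (ball c R) := fun z hz z' hz' e => hsq z hz z' hz' (by rw [e])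
  have hO : IsOpen (φ '' ball c R) := Lib.RMT.isOpen_image_of_injOn isOpen_ball hφ hφi
  have hdis : Disjoint (φ '' ball c R) (-(φ '' ball c R)) := by
    rw [Set.disjoint_left]
    rintro _ ⟨z, hz, rfl⟩ ⟨z', hz', e⟩
    have e1 : z' = z := hsq z' hz' z hz (by rw [e]; ring)
    rw [e1] at e
    have e2 : φ z = 0 := by linear_combination e / 2
    exact hne z hz (by rw [← hφ2 z hz, e2]; ring)
  have hcov : ball (1 : ℂ) (1 / 3) ⊆ φ '' ball c R ∪ -(φ '' ball c R) := by
    intro v hv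
    rw [mem_ball_iff_norm] at hv
    have h1 : ‖v + 1‖ ≤ 7 / 3 := by
      calc ‖v + 1‖ = ‖(v - 1) + 2‖ := by congr 1; ring
        _ ≤ ‖v - 1‖ + ‖(2 : ℂ)‖ := norm_add_le _ _
        _ ≤ 7 / 3 := by simp only [Complex.norm_ofNat]; linarith
    have h2 : f c + (1 - v ^ 2) * (w - f c) ∈ ball (f c) ‖w - f c‖ := by
      rw [mem_ball_iff_norm, add_sub_cancel_left, norm_mul, show 1 - v ^ 2 = -((v - 1) * (v + 1)) by ring, norm_neg,
        norm_mul]
      have : ‖v - 1‖ * ‖v + 1‖ < 1 := by nlinarith [norm_nonneg (v - 1), norm_nonneg (v + 1)]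
      nlinarith
    obtain ⟨z, hz, e⟩ := hb h2
    have h3 : φ z ^ 2 = v ^ 2 := by
      rw [hφ2 z hz, e]
      field_simp
      ring
    rcases sq_eq_sq_iff_eq_or_eq_neg.1 h3 with h4 | h4
    · exact Or.inl ⟨z, hz, h4⟩
    · exact Or.inr ⟨z, hz, h4⟩
  have hsub : ball (1 : ℂ) (1 / 3) ⊆ φ '' ball c R :=
    (convex_ball (1 : ℂ) (1 / 3)).isPreconnected.subset_left_of_subset_union hO hO.neg hdis hcov
      ⟨1, mem_ball_self (by norm_num), c, mem_ball_self hR, hφ1⟩
  have hlow : ∀ z ∈ ball c R, 1 / 3 ≤ ‖φ z + 1‖ := by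
    intro z hz
    by_contra hlt
    have h1 : -φ z ∈ ball (1 : ℂ) (1 / 3) := by
      rw [mem_ball_iff_norm, show -φ z - 1 = -(φ z + 1) by ring, norm_neg]
      exact not_le.1 hlt
    exact Set.disjoint_left.1 hdis (hsub h1) (by simpa using ⟨z, hz, rfl⟩)
  have hne1 : ∀ z ∈ ball c R, φ z + 1 ≠ 0 := fun z hz e => by
    have := hlow z hz
    rw [e, norm_zero] at this
    norm_num at this
  have hzR : dist z c ≤ R / 14 := hz
  have hz' : z ∈ ball c R := by
    rw [mem_ball]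
    linarith
  have hψ := Complex.dist_le_div_mul_dist_of_mapsTo_ball (f := fun z => (φ z + 1)⁻¹) (R₂ := 7 / 2)
    ((hφ.add_const 1).inv hne1) (fun u hu => by
      rw [mem_closedBall_iff_norm, hφ1]
      have h1 : ‖(φ u + 1)⁻¹‖ ≤ 3 := by
        rw [norm_inv]
        exact inv_le_of_inv_le₀ (by norm_num) (by simpa using hlow u hu)
      have h2 : ‖((1 : ℂ) + 1)⁻¹‖ = 1 / 2 := by norm_num
      linarith [norm_sub_le (φ u + 1)⁻¹ ((1 : ℂ) + 1)⁻¹]) hz'
  have h5 : 7 / 2 / R * dist z c ≤ 1 / 4 := by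
    calc 7 / 2 / R * dist z c ≤ 7 / 2 / R * (R / 14) := by gcongr
      _ = 1 / 4 := by field_simp; norm_num
  have h6 : 1 / 4 ≤ ‖(φ z + 1)⁻¹‖ := by
    rw [dist_eq_norm, hφ1] at hψ
    have h2 : ‖((1 : ℂ) + 1)⁻¹‖ = 1 / 2 := by norm_num
    have h3 := norm_sub_norm_le ((1 : ℂ) + 1)⁻¹ (φ z + 1)⁻¹
    rw [norm_sub_rev] at h3
    linarith
  have h7 : ‖φ z + 1‖ ≤ 4 := by
    rw [norm_inv] at h6
    have h8 := (le_inv_comm₀ (by norm_num) (norm_pos_iff.2 (hne1 z hz'))).1 h6
    simpa using h8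
  have h8 : ‖φ z‖ ≤ 5 := by
    have := norm_sub_le (φ z + 1) 1
    rw [add_sub_cancel_right, norm_one] at this
    linarith
  have h9 : f z - f c = (1 - φ z ^ 2) * (w - f c) := by
    rw [hφ2 z hz']
    field_simp
    ring
  rw [h9, norm_mul]
  refine mul_le_mul_of_nonneg_right ?_ hd0.le
  have := norm_sub_le 1 (φ z ^ 2)
  rw [norm_one, norm_pow] at this
  nlinarith [norm_nonneg (φ z)]

/-- `kd_schwarz` with `T z = (z - c) / R`: every ball about `f c` in the image has radius `≤ R ‖f' c‖`; so the (closed) complement of the image is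
nonempty, take a nearest point `w` (`IsClosed.exists_infDist_eq_dist`, `ball_infDist_compl_subset`), `d = ‖w - f c‖ ≤ R ‖f' c‖`.  `kd_core`, and the Cauchy
estimate `Complex.norm_deriv_le_of_forall_mem_sphere_norm_le` on `sphere c (R/14)` gives `‖f' c‖ ≤ 26 d / (R / 14)`. -/
theorem kd_main (hR : 0 < R) (hf : DifferentiableOn ℂ f (ball c R)) (hi : InjOn f (ball c R)) :
    ball (f c) (R * ‖deriv f c‖ / 364) ⊆ f '' ball c R ∧
      ∀ z ∈ closedBall c (R / 14), ‖f z - f c‖ ≤ 26 * (R * ‖deriv f c‖) := by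
  have hT : HasDerivAt (fun z : ℂ => (z - c) / R) (1 / R) c := ((hasDerivAt_id c).sub_const c).div_const _
  have hS : ∀ r : ℝ, ball (f c) r ⊆ f '' ball c R → r ≤ R * ‖deriv f c‖ := by
    intro r hr
    have := kd_schwarz isOpen_ball hf hi (mem_ball_self hR) (T := fun z : ℂ => (z - c) / R) (by fun_prop)
      (fun z hz => by
        rw [norm_div, Complex.norm_real, Real.norm_of_nonneg hR.le, div_le_one hR]
        exact (mem_ball_iff_norm.1 hz).le) (by simp) hr
    rw [hT.deriv, norm_div, norm_one, Complex.norm_real, Real.norm_of_nonneg hR.le, mul_one_div,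
      div_le_iff₀ hR] at this
    linarith
  have hO : IsOpen (f '' ball c R) := Lib.RMT.isOpen_image_of_injOn isOpen_ball hf hi
  have hne : (f '' ball c R)ᶜ.Nonempty := by
    by_contra h
    rw [Set.not_nonempty_iff_eq_empty, compl_empty_iff] at h
    have := hS (R * ‖deriv f c‖ + 1) (by rw [h]; exact subset_univ _)
    linarith
  obtain ⟨w, hw, hwd⟩ := hO.isClosed_compl.exists_infDist_eq_dist hne (f c)
  have hb : ball (f c) ‖w - f c‖ ⊆ f '' ball c R := by
    rw [← dist_eq_norm, dist_comm, ← hwd]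
    exact ball_infDist_compl_subset
  have hcore : ∀ z ∈ closedBall c (R / 14), ‖f z - f c‖ ≤ 26 * ‖w - f c‖ := fun z hz => kd_core hR hf hi hw hb hz
  have hle := hS _ hb
  refine ⟨(ball_subset_ball ?_).trans hb, fun z hz => (hcore z hz).trans (by linarith)⟩
  have h1 := Complex.norm_deriv_le_of_forall_mem_sphere_norm_le (f := fun z => f z - f c) (c := c) (R := R / 14)
    (by linarith) ((hf.sub_const _).diffContOnCl_ball (closedBall_subset_ball (by linarith)))
    fun z hz => hcore z (sphere_subset_closedBall hz)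
  rw [deriv_sub_const, le_div_iff₀ (by linarith)] at h1
  linarith

/-- `Complex.norm_iteratedDeriv_le_of_forall_mem_sphere_norm_le` with `n = 2` for `f - f c` on `sphere c (R/14)`; `2 · 26 · 14² = 10192`. -/
theorem kd_second (hR : 0 < R) (hf : DifferentiableOn ℂ f (ball c R)) (hi : InjOn f (ball c R)) :
    R * ‖deriv (deriv f) c‖ ≤ 10192 * ‖deriv f c‖ := by
  have h1 := Complex.norm_iteratedDeriv_le_of_forall_mem_sphere_norm_le (f := fun z => f z - f c) (c := c)
    (R := R / 14) 2 (by linarith) ((hf.sub_const _).diffContOnCl_ball (closedBall_subset_ball (by linarith)))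
    fun z hz => (kd_main hR hf hi).2 z (sphere_subset_closedBall hz)
  have h2 : iteratedDeriv 2 (fun z => f z - f c) c = deriv (deriv f) c := by
    rw [iteratedDeriv_succ, iteratedDeriv_one]
    congr 1
    funext z
    exact deriv_sub_const _
  rw [h2, le_div_iff₀ (by positivity)] at h1
  simp only [Nat.factorial, Nat.succ_eq_add_one, Nat.reduceAdd, mul_one, Nat.cast_ofNat] at h1
  have h3 : R * (R * ‖deriv (deriv f) c‖) ≤ R * (10192 * ‖deriv f c‖) := by nlinarith
  exact le_of_mul_le_mul_left h3 hR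

end Crest.Agent.R162
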