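import Crest.Agent.R162.K.Str
import Crest.Agent.R162.K.Disc

/-!
# Row 162, block K: Koebe's theorems in the half-plane
-/

set_option autoImplicit false

open scoped Topology
open Set Filter Metric

noncomputable section
namespace Crest.Agent.R162

variable {f : ℂ → ℂ} {ζ ζ' : ℂ}

theorem kh_open : IsOpen HH := isOpen_lt continuous_const Complex.continuous_im

theorem kh_convex : Convex ℝ HH := convex_halfSpace_im_gt 0

theorem kh_im_le (ζ ζ' : ℂ) : ζ.im - ‖ζ' - ζ‖ ≤ ζ'.im ∧ ζ'.im ≤ ζ.im + ‖ζ' - ζ‖ := by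
  have h := abs_le.1 (Complex.abs_im_le_norm (ζ' - ζ))
  rw [Complex.sub_im] at h
  constructor <;> linarith [h.1, h.2]

theorem kh_ball {r : ℝ} (hr : r ≤ ζ.im) : ball ζ r ⊆ HH := fun z hz => by
  have h := (kh_im_le ζ z).1
  rw [mem_ball_iff_norm] at hz
  show 0 < z.im
  linarith

theorem kh_second (hf : DifferentiableOn ℂ f HH) (hi : InjOn f HH) (hζ : ζ ∈ HH) :
    ζ.im * ‖deriv (deriv f) ζ‖ ≤ 10192 * ‖deriv f ζ‖ :=
  kd_second hζ (hf.mono (kh_ball le_rfl)) (hi.mono (kh_ball le_rfl))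

theorem le_of_sq_le_sq_of_nonneg' {a b : ℂ} (h : ‖a‖ ^ 2 ≤ ‖b‖ ^ 2) : ‖a‖ ≤ ‖b‖ :=
  (pow_le_pow_iff_left₀ (norm_nonneg _) (norm_nonneg _) two_ne_zero).1 h

/-- `kd_schwarz` with the Cayley map `T u = (u - ζ) / (u - conj ζ)`, `T' ζ = 1 / (2 i Im ζ)`. -/
theorem kh_schwarz (hf : DifferentiableOn ℂ f HH) (hi : InjOn f HH) (hζ : ζ ∈ HH) {r : ℝ}
    (h : ball (f ζ) r ⊆ f '' HH) : r ≤ 2 * (ζ.im * ‖deriv f ζ‖) := by
  have hζ0 : 0 < ζ.im := hζ
  have hne : ∀ u ∈ HH, u - (starRingEnd ℂ) ζ ≠ 0 := by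
    intro u hu e
    have h1 := congrArg Complex.im e
    have h2 : 0 < u.im := hu
    simp only [Complex.sub_im, Complex.conj_im, Complex.zero_im] at h1
    linarith
  have hT : HasDerivAt (fun u : ℂ => (u - ζ) / (u - (starRingEnd ℂ) ζ)) (1 / (ζ - (starRingEnd ℂ) ζ)) ζ := by
    have h1 := ((hasDerivAt_id ζ).sub_const ζ).div ((hasDerivAt_id ζ).sub_const ((starRingEnd ℂ) ζ)) (hne ζ hζ)
    refine h1.congr_deriv ?_
    have := hne ζ hζ
    simp only [id]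
    field_simp
    ring
  have h1 := kd_schwarz kh_open hf hi hζ (T := fun u : ℂ => (u - ζ) / (u - (starRingEnd ℂ) ζ))
    ((differentiableOn_id.sub_const _).div (differentiableOn_id.sub_const _) hne) (fun u hu => by
      have h2 : 0 < u.im := hu
      rw [norm_div, div_le_one (norm_pos_iff.2 (hne u hu))]
      refine le_of_sq_le_sq_of_nonneg' ?_
      rw [Complex.sq_norm, Complex.sq_norm, Complex.normSq_apply, Complex.normSq_apply]
      simp only [Complex.sub_re, Complex.sub_im, Complex.conj_re, Complex.conj_im]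
      nlinarith [mul_pos h2 hζ0]) (by simp) h
  rw [hT.deriv, Complex.sub_conj, norm_div, norm_one, norm_mul, Complex.norm_I, Complex.norm_real,
    Real.norm_of_nonneg (by linarith), mul_one, mul_one_div, div_le_iff₀ (by linarith)] at h1
  linarith

/-- Gronwall (`norm_le_gronwallBound_of_norm_deriv_right_le` with `ε = 0`, `gronwallBound_ε0`) for `u t = f' (p t)`:
`‖u'‖ ≤ ‖f'' (p t)‖ K Im (p t) ≤ 10192 K ‖u‖` (`kh_second`; `DifferentiableOn.deriv`). -/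
theorem kh_path (hf : DifferentiableOn ℂ f HH) (hi : InjOn f HH) {p p' : ℝ → ℂ} {K : ℝ}
    (hp : ∀ t ∈ Icc (0 : ℝ) 1, HasDerivAt p (p' t) t ∧ p t ∈ HH ∧ ‖p' t‖ ≤ K * (p t).im) :
    ‖deriv f (p 1)‖ ≤ Real.exp (10192 * K) * ‖deriv f (p 0)‖ := by
  have hd : ∀ t ∈ Icc (0 : ℝ) 1, HasDerivAt (fun t => deriv f (p t)) (deriv (deriv f) (p t) * p' t) t := by
    intro t ht
    obtain ⟨h1, h2, -⟩ := hp t ht
    have h3 := ((hf.deriv kh_open).differentiableAt (kh_open.mem_nhds h2)).hasDerivAt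
    have h4 := (h3.hasFDerivAt.restrictScalars ℝ).comp_hasDerivAt t h1
    exact h4.congr_deriv (by simp [mul_comm])
  have h := norm_le_gronwallBound_of_norm_deriv_right_le (δ := ‖deriv f (p 0)‖) (K := 10192 * K) (ε := 0)
    (fun t ht => (hd t ht).continuousAt.continuousWithinAt)
    (fun t ht => (hd t (Ico_subset_Icc_self ht)).hasDerivWithinAt) le_rfl (fun t ht => by
      obtain ⟨-, h2, h3⟩ := hp t (Ico_subset_Icc_self ht)
      have h4 := kh_second hf hi h2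
      have h5 : 0 < (p t).im := h2
      have hK : 0 ≤ K := nonneg_of_mul_nonneg_left ((norm_nonneg _).trans h3) h5
      rw [norm_mul, add_zero]
      calc ‖deriv (deriv f) (p t)‖ * ‖p' t‖ ≤ ‖deriv (deriv f) (p t)‖ * (K * (p t).im) := by gcongr
        _ = K * ((p t).im * ‖deriv (deriv f) (p t)‖) := by ring
        _ ≤ K * (10192 * ‖deriv f (p t)‖) := by gcongr
        _ = _ := by ring) 1 ⟨zero_le_one, le_rfl⟩
  rw [gronwallBound_ε0, sub_zero, mul_one, mul_comm] at h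
  exact h

/-- `kh_path` along the segment `p t = ζ + t (ζ' - ζ)`, on which `Im ≥ m`. -/
theorem kh_seg (hf : DifferentiableOn ℂ f HH) (hi : InjOn f HH) {m K : ℝ} (hm : 0 < m) (h : m ≤ ζ.im) (h' : m ≤ ζ'.im)
    (hK : ‖ζ' - ζ‖ ≤ K * m) : ‖deriv f ζ'‖ ≤ Real.exp (10192 * K) * ‖deriv f ζ‖ := by
  have hK0 : 0 ≤ K := nonneg_of_mul_nonneg_left ((norm_nonneg _).trans hK) hm
  have := kh_path hf hi (p := fun t => ζ + t * (ζ' - ζ)) (p' := fun _ => ζ' - ζ) (K := K) fun t ht => by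
    have h1 : m ≤ (ζ + t * (ζ' - ζ)).im := by
      simp only [Complex.add_im, Complex.mul_im, Complex.ofReal_re, Complex.ofReal_im, Complex.sub_im, zero_mul,
        add_zero]
      nlinarith [ht.1, ht.2]
    refine ⟨?_, hm.trans_le h1, hK.trans (by gcongr)⟩
    simpa using ((Complex.ofRealCLM.hasDerivAt (x := t)).mul_const (ζ' - ζ)).const_add ζ
  simpa using this

theorem pos_of_mul_pos_of_pos_right' {a b : ℝ} (h : 0 < a * b) (hb : 0 < b) : 0 < a :=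
  (mul_pos_iff_of_pos_right hb).1 h

/-- `kh_path` along `p t = x + i y exp (t L)`, `L = log (y' / y)`, `K = |L| ≤ log N`. -/
theorem kh_vert (hf : DifferentiableOn ℂ f HH) (hi : InjOn f HH) (hζ : ζ ∈ HH) (hζ' : ζ' ∈ HH) (hre : ζ'.re = ζ.re)
    {N : ℝ} (h : ζ'.im ≤ N * ζ.im) (h' : ζ.im ≤ N * ζ'.im) : ‖deriv f ζ'‖ ≤ N ^ (10192 : ℝ) * ‖deriv f ζ‖ := by
  have hy : 0 < ζ.im := hζ
  have hy' : 0 < ζ'.im := hζ'
  have hN : 0 < N := pos_of_mul_pos_of_pos_right' (hy'.trans_le h) hy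
  set L := Real.log (ζ'.im / ζ.im) with hL
  have hL1 : |L| ≤ Real.log N := by
    rw [abs_le, hL, ← Real.log_inv]
    refine ⟨Real.log_le_log (inv_pos.2 hN) ?_, Real.log_le_log (div_pos hy' hy) ((div_le_iff₀ hy).2 h)⟩
    rw [le_div_iff₀ hy, inv_mul_le_iff₀ hN]
    exact h'
  have := kh_path hf hi (p := fun t => (ζ.re : ℂ) + ((ζ.im * Real.exp (t * L) : ℝ) : ℂ) * Complex.I)
    (p' := fun t => ((ζ.im * (Real.exp (t * L) * L) : ℝ) : ℂ) * Complex.I) (K := Real.log N) fun t ht => by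
      have h1 : ((ζ.re : ℂ) + ((ζ.im * Real.exp (t * L) : ℝ) : ℂ) * Complex.I).im = ζ.im * Real.exp (t * L) := by
        simp only [Complex.add_im, Complex.mul_im, Complex.ofReal_re, Complex.ofReal_im, Complex.I_re, Complex.I_im]
        ring
      have h2 : 0 < ζ.im * Real.exp (t * L) := mul_pos hy (Real.exp_pos _)
      refine ⟨?_, by rw [← h1] at h2; exact h2, ?_⟩
      · have h3 : HasDerivAt (fun t : ℝ => ζ.im * Real.exp (t * L)) (ζ.im * (Real.exp (t * L) * L)) t := by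
          simpa using ((hasDerivAt_mul_const L).exp).const_mul ζ.im
        exact (h3.ofReal_comp.mul_const Complex.I).const_add _
      · rw [h1, norm_mul, Complex.norm_I, mul_one, Complex.norm_real, Real.norm_eq_abs, ← mul_assoc, abs_mul,
          abs_of_pos h2, mul_comm]
        gcongr
  have e0 : (ζ.re : ℂ) + ((ζ.im * Real.exp (0 * L) : ℝ) : ℂ) * Complex.I = ζ := by simp
  have e1 : (ζ.re : ℂ) + ((ζ.im * Real.exp (1 * L) : ℝ) : ℂ) * Complex.I = ζ' := by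
    rw [one_mul, hL, Real.exp_log (div_pos hy' hy), mul_div_cancel₀ _ hy.ne', ← hre, Complex.re_add_im]
  rw [e0, e1] at this
  rw [Real.rpow_def_of_pos hN, mul_comm (Real.log N)]
  exact this

/-- `kh_seg` with `m = Im ζ / 2`, `K = 1`, in both directions; mean value inequality on the convex set `closedBall ζ (Im ζ / 2)`
(`Convex.norm_image_sub_le_of_norm_deriv_le`); for the last part `kd_main` on `ball ζ ‖ζ' - ζ‖`, whose image does not contain `f ζ'`. -/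
theorem kh_near (hf : DifferentiableOn ℂ f HH) (hi : InjOn f HH) (hζ : ζ ∈ HH) (h : ζ' ∈ closedBall ζ (ζ.im / 2)) :
    ‖deriv f ζ'‖ ≤ Real.exp 10192 * ‖deriv f ζ‖ ∧ ‖deriv f ζ‖ ≤ Real.exp 10192 * ‖deriv f ζ'‖ ∧
      ‖f ζ' - f ζ‖ ≤ Real.exp 10192 * ‖deriv f ζ‖ * ‖ζ' - ζ‖ ∧ ‖deriv f ζ‖ * ‖ζ' - ζ‖ ≤ 364 * ‖f ζ' - f ζ‖ := by
  have hy : 0 < ζ.im := hζ
  have hsub : closedBall ζ (ζ.im / 2) ⊆ HH := (closedBall_subset_ball (by linarith)).trans (kh_ball le_rfl)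
  have key : ∀ u ∈ closedBall ζ (ζ.im / 2), ‖deriv f u‖ ≤ Real.exp 10192 * ‖deriv f ζ‖ ∧
      ‖deriv f ζ‖ ≤ Real.exp 10192 * ‖deriv f u‖ := by
    intro u hu
    rw [mem_closedBall_iff_norm] at hu
    have h1 : ζ.im / 2 ≤ u.im := by linarith [(kh_im_le ζ u).1]
    constructor
    · simpa using kh_seg hf hi (m := ζ.im / 2) (K := 1) (by linarith) (by linarith) h1 (by linarith)
    · simpa using kh_seg hf hi (m := ζ.im / 2) (K := 1) (by linarith) h1 (by linarith : ζ.im / 2 ≤ ζ.im)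
        (by rw [norm_sub_rev]; linarith)
  refine ⟨(key _ h).1, (key _ h).2, ?_, ?_⟩
  · exact Convex.norm_image_sub_le_of_norm_deriv_le (fun u hu => hf.differentiableAt (kh_open.mem_nhds (hsub hu)))
      (fun u hu => (key u hu).1) (convex_closedBall _ _) (mem_closedBall_self (by linarith)) h
  · rcases (norm_nonneg (ζ' - ζ)).eq_or_lt with h0 | h0
    · rw [← h0, mul_zero]
      positivity
    have h1 : ball ζ ‖ζ' - ζ‖ ⊆ HH := kh_ball (by linarith [mem_closedBall_iff_norm.1 h])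
    by_contra hlt
    obtain ⟨u, hu, e⟩ := (kd_main h0 (hf.mono h1) (hi.mono h1)).1 (show f ζ' ∈ _ by
      rw [mem_ball_iff_norm]
      linarith [not_le.1 hlt])
    rw [hi (h1 hu) (hsub h) e, mem_ball_iff_norm] at hu
    exact lt_irrefl _ hu

/-- with `m = min (Im ζ) (Im ζ')` go up to the height `H = 2 M m ≥ max` (`kh_vert`, `N = 2 M`), horizontally (`kh_seg`, `K = 1`), and down. -/
theorem kh_far1 (hf : DifferentiableOn ℂ f HH) (hi : InjOn f HH) (hζ : ζ ∈ HH) (hζ' : ζ' ∈ HH) {M : ℝ} (hM : 1 ≤ M)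
    (h : ‖ζ' - ζ‖ ≤ M * min ζ.im ζ'.im) :
    ‖deriv f ζ'‖ ≤ Real.exp 10192 * (2 * M) ^ (20384 : ℝ) * ‖deriv f ζ‖ := by
  have hy : 0 < ζ.im := hζ
  have hy' : 0 < ζ'.im := hζ'
  set m := min ζ.im ζ'.im with hm
  have hm0 : 0 < m := lt_min hy hy'
  have hm1 : m ≤ ζ.im := min_le_left _ _
  have hm2 : m ≤ ζ'.im := min_le_right _ _
  have hMm : m ≤ M * m := le_mul_of_one_le_left hm0.le hM
  have hH : ζ.im ≤ 2 * M * m ∧ ζ'.im ≤ 2 * M * m := by
    obtain ⟨h1, h2⟩ := kh_im_le ζ ζ'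
    rcases min_cases ζ.im ζ'.im with ⟨e, -⟩ | ⟨e, -⟩ <;> rw [← hm] at e <;> constructor <;> linarith
  have hH0 : 0 < 2 * M * m := hy.trans_le hH.1
  have hHH : 2 * M * m ≤ 2 * M * (2 * M * m) := le_mul_of_one_le_left hH0.le (by linarith)
  set a : ℂ := ⟨ζ.re, 2 * M * m⟩ with ha
  set a' : ℂ := ⟨ζ'.re, 2 * M * m⟩ with ha'
  have h1 := kh_vert hf hi hζ (show a ∈ HH from hH0) rfl (N := 2 * M)
    (show 2 * M * m ≤ 2 * M * ζ.im by gcongr) (hH.1.trans hHH)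
  have h2 := kh_seg hf hi (ζ := a) (ζ' := a') (K := 1) hH0 le_rfl le_rfl (by
    have e : a' - a = ((ζ' - ζ).re : ℝ) := by
      apply Complex.ext <;> simp [ha, ha']
    rw [e, Complex.norm_real, Real.norm_eq_abs]
    linarith [Complex.abs_re_le_norm (ζ' - ζ)])
  have h3 := kh_vert hf hi (show a' ∈ HH from hH0) hζ' rfl (N := 2 * M) (hH.2.trans hHH)
    (show 2 * M * m ≤ 2 * M * ζ'.im by gcongr)
  have h4 : (2 * M) ^ (20384 : ℝ) = (2 * M) ^ (10192 : ℝ) * (2 * M) ^ (10192 : ℝ) := by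
    rw [← Real.rpow_add (by linarith)]
    norm_num
  have h5 : 0 ≤ (2 * M) ^ (10192 : ℝ) := Real.rpow_nonneg (by linarith) _
  rw [mul_one] at h2
  calc ‖deriv f ζ'‖ ≤ (2 * M) ^ (10192 : ℝ) * ‖deriv f a'‖ := h3
    _ ≤ (2 * M) ^ (10192 : ℝ) * (Real.exp 10192 * ((2 * M) ^ (10192 : ℝ) * ‖deriv f ζ‖)) := by
        refine mul_le_mul_of_nonneg_left (h2.trans ?_) h5
        exact mul_le_mul_of_nonneg_left h1 (Real.exp_pos _).le
    _ = _ := by rw [h4]; ring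

/-- `kh_far1` at every point of the segment `[ζ, ζ']`, mean value inequality. -/
theorem kh_far2 (hf : DifferentiableOn ℂ f HH) (hi : InjOn f HH) (hζ : ζ ∈ HH) (hζ' : ζ' ∈ HH) {M : ℝ} (hM : 1 ≤ M)
    (h : ‖ζ' - ζ‖ ≤ M * min ζ.im ζ'.im) :
    ‖f ζ' - f ζ‖ ≤ Real.exp 10192 * (2 * M) ^ (20384 : ℝ) * M * (ζ.im * ‖deriv f ζ‖) := by
  have hy : 0 < ζ.im := hζ
  have hs : segment ℝ ζ ζ' ⊆ HH := kh_convex.segment_subset hζ hζ'
  have h1 := Convex.norm_image_sub_le_of_norm_deriv_le (f := f) (s := segment ℝ ζ ζ')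
    (C := Real.exp 10192 * (2 * M) ^ (20384 : ℝ) * ‖deriv f ζ‖)
    (fun u hu => hf.differentiableAt (kh_open.mem_nhds (hs hu))) (fun u hu => by
      refine kh_far1 hf hi hζ (hs hu) hM ?_
      have h2 : ‖u - ζ‖ ≤ ‖ζ' - ζ‖ := mem_closedBall_iff_norm.1
        ((convex_closedBall ζ ‖ζ' - ζ‖).segment_subset (mem_closedBall_self (norm_nonneg _))
          (mem_closedBall_iff_norm.2 le_rfl) hu)
      have h3 : min ζ.im ζ'.im ≤ u.im :=
        (convex_halfSpace_im_ge (min ζ.im ζ'.im)).segment_subset (min_le_left ζ.im ζ'.im)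
          (min_le_right ζ.im ζ'.im) hu
      refine h2.trans (h.trans (mul_le_mul_of_nonneg_left (le_min (min_le_left _ _) h3) (by linarith))))
    (convex_segment _ _) (left_mem_segment _ _ _) (right_mem_segment _ _ _)
  have h2 : ‖ζ' - ζ‖ ≤ M * ζ.im := h.trans (mul_le_mul_of_nonneg_left (min_le_left _ _) (by linarith))
  have h5 : 0 ≤ (2 * M) ^ (20384 : ℝ) := Real.rpow_nonneg (by linarith) _
  calc ‖f ζ' - f ζ‖ ≤ Real.exp 10192 * (2 * M) ^ (20384 : ℝ) * ‖deriv f ζ‖ * (M * ζ.im) :=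
        h1.trans (mul_le_mul_of_nonneg_left h2 (by positivity))
    _ = _ := by ring

/-- `C = exp 10192 * 2 ^ 20384 + 20385`; `quarter` is `kd_main` on `ball ζ (Im ζ / 2)`. -/
theorem kh_exists : ∃ C, Koebe C := by
  obtain ⟨A, hA, hA1⟩ : ∃ A : ℝ, A = (2 : ℝ) ^ (20384 : ℝ) ∧ 1 ≤ A := ⟨_, rfl, Real.one_le_rpow one_le_two (by norm_num)⟩
  obtain ⟨E, hE, hE0⟩ : ∃ E : ℝ, E = Real.exp 10192 ∧ 0 < E := ⟨_, rfl, Real.exp_pos _⟩
  have hEA : E ≤ E * A := le_mul_of_one_le_right hE0.le hA1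
  obtain ⟨C, hC1, hC2, hC3⟩ : ∃ C : ℝ, E ≤ C ∧ E * A ≤ C ∧ 20385 ≤ C :=
    ⟨E * A + 20385, by linarith, by linarith, by linarith⟩
  have hfar : ∀ M : ℝ, 1 ≤ M → E * (2 * M) ^ (20384 : ℝ) * M ≤ C * M ^ C := by
    intro M hM
    have h1 : M ^ (20384 : ℝ) * M ≤ M ^ C := by
      rw [← Real.rpow_add_one (by linarith)]
      exact Real.rpow_le_rpow_of_exponent_le hM (by linarith)
    have h2 : 0 ≤ M ^ (20384 : ℝ) * M := mul_nonneg (Real.rpow_nonneg (by linarith) _) (by linarith)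
    rw [Real.mul_rpow zero_le_two (by linarith), ← hA]
    calc E * (A * M ^ (20384 : ℝ)) * M = E * A * (M ^ (20384 : ℝ) * M) := by ring
      _ ≤ C * M ^ C := mul_le_mul hC2 h1 h2 (by linarith)
  refine ⟨C, by linarith, fun f hf hi ζ hζ => Lib.RMT.deriv_ne_zero_of_injOn kh_open hf hi hζ,
    fun f hf hi ζ hζ => (kh_second hf hi hζ).trans (mul_le_mul_of_nonneg_right (by linarith) (norm_nonneg _)),
    fun f hf hi ζ hζ => ?_, fun f hf hi ζ hζ r h => kh_schwarz hf hi hζ h, fun f hf hi ζ hζ ζ' h => ?_,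
    fun f hf hi ζ hζ ζ' hζ' M hM h => ?_⟩
  · have hy : 0 < ζ.im := hζ
    have h1 : ball ζ (ζ.im / 2) ⊆ HH := kh_ball (by linarith)
    refine (ball_subset_ball ?_).trans (kd_main (by linarith) (hf.mono h1) (hi.mono h1)).1
    calc ζ.im * ‖deriv f ζ‖ / C ≤ ζ.im * ‖deriv f ζ‖ / 728 := by gcongr; linarith
      _ = _ := by ring
  · obtain ⟨h1, h2, h3, h4⟩ := kh_near hf hi hζ h
    rw [← hE] at h1 h2 h3
    refine ⟨h1.trans (by gcongr), h2.trans (by gcongr), h3.trans (by gcongr), h4.trans ?_⟩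
    exact mul_le_mul_of_nonneg_right (by linarith) (norm_nonneg _)
  · have hy : 0 < ζ.im := hζ
    have h1 := kh_far1 hf hi hζ hζ' hM h
    have h2 := kh_far2 hf hi hζ hζ' hM h
    rw [← hE] at h1 h2
    have h5 : 0 ≤ E * (2 * M) ^ (20384 : ℝ) := mul_nonneg hE0.le (Real.rpow_nonneg (by linarith) _)
    exact ⟨h1.trans (mul_le_mul_of_nonneg_right ((le_mul_of_one_le_right h5 hM).trans (hfar M hM)) (norm_nonneg _)),
      h2.trans (mul_le_mul_of_nonneg_right (hfar M hM) (by positivity))⟩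

end Crest.Agent.R162
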