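import Crest.Agent.R162.L

/-!
# Row 162, block K: the structures `Koebe`, `KoebeF` (FROZEN; moved here from the API file `R162/K.lean`)
-/

set_option autoImplicit false

open scoped ENNReal NNReal Topology
open Set Filter MeasureTheory Metric

noncomputable section
namespace Crest.Agent.R162

/-- Koebe's theorems in the half-plane with an unspecified absolute constant -/
structure Koebe (C : ℝ) : Prop where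
  two_le : 2 ≤ C
  ne : ∀ f : ℂ → ℂ, DifferentiableOn ℂ f HH → InjOn f HH → ∀ ζ ∈ HH, deriv f ζ ≠ 0
  second : ∀ f : ℂ → ℂ, DifferentiableOn ℂ f HH → InjOn f HH → ∀ ζ ∈ HH,
    ζ.im * ‖deriv (deriv f) ζ‖ ≤ C * ‖deriv f ζ‖
  quarter : ∀ f : ℂ → ℂ, DifferentiableOn ℂ f HH → InjOn f HH → ∀ ζ ∈ HH,
    ball (f ζ) (ζ.im * ‖deriv f ζ‖ / C) ⊆ f '' ball ζ (ζ.im / 2)
  schwarz : ∀ f : ℂ → ℂ, DifferentiableOn ℂ f HH → InjOn f HH → ∀ ζ ∈ HH, ∀ r : ℝ,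
    ball (f ζ) r ⊆ f '' HH → r ≤ 2 * (ζ.im * ‖deriv f ζ‖)
  near : ∀ f : ℂ → ℂ, DifferentiableOn ℂ f HH → InjOn f HH → ∀ ζ ∈ HH, ∀ ζ' ∈ closedBall ζ (ζ.im / 2),
    ‖deriv f ζ'‖ ≤ C * ‖deriv f ζ‖ ∧ ‖deriv f ζ‖ ≤ C * ‖deriv f ζ'‖ ∧
      ‖f ζ' - f ζ‖ ≤ C * ‖deriv f ζ‖ * ‖ζ' - ζ‖ ∧ ‖deriv f ζ‖ * ‖ζ' - ζ‖ ≤ C * ‖f ζ' - f ζ‖
  /-- power-law distortion at hyperbolic distance `≲ log M` -/
  far : ∀ f : ℂ → ℂ, DifferentiableOn ℂ f HH → InjOn f HH → ∀ ζ ∈ HH, ∀ ζ' ∈ HH, ∀ M : ℝ, 1 ≤ M →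
    ‖ζ' - ζ‖ ≤ M * min ζ.im ζ'.im →
    ‖deriv f ζ'‖ ≤ C * M ^ C * ‖deriv f ζ‖ ∧ ‖f ζ' - f ζ‖ ≤ C * M ^ C * (ζ.im * ‖deriv f ζ‖)

/-- the same statements along the flow -/
structure KoebeF (C : ℝ) : Prop where
  two_le : 2 ≤ C
  ball_sub : ∀ ω z t, Alive ω z t → ball z (Up ω z t / C) ⊆ Dom ω t
  le_Up : ∀ ω z t r, Alive ω z t → ball z r ⊆ Dom ω t → r ≤ 2 * Up ω z t
  near : ∀ ω z t, Alive ω z t → ∀ z' ∈ ball z (Up ω z t / C), Alive ω z' t ∧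
    ‖gt ω z' t - gt ω z t‖ ≤ Yc ω z t / 2 ∧
    Up ω z t * ‖gt ω z' t - gt ω z t‖ ≤ C * Yc ω z t * ‖z' - z‖ ∧
    Yc ω z t * ‖z' - z‖ ≤ C * Up ω z t * ‖gt ω z' t - gt ω z t‖ ∧
    Up ω z' t ≤ C * Up ω z t ∧ Up ω z t ≤ C * Up ω z' t ∧
    Sc ω z' t ≤ C * Sc ω z t ∧ Sc ω z t ≤ C * Sc ω z' t
  far : ∀ ω z z' t (M : ℝ), Alive ω z t → Alive ω z' t → 1 ≤ M →
    ‖gt ω z' t - gt ω z t‖ ≤ M * min (Yc ω z t) (Yc ω z' t) →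
    ‖z' - z‖ ≤ C * M ^ C * Up ω z t ∧ Up ω z' t ≤ C * M ^ C * Up ω z t
  /-- if a ball about `z` survives then all points of the half ball have a large `Υ`;  `Υ` is Lipschitz-like -/
  lip : ∀ ω z z' t, Alive ω z t → Alive ω z' t → Up ω z' t ≤ C * (Up ω z t + ‖z' - z‖)

end Crest.Agent.R162
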